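import Vale.Agent.Lib.P063.Width

/-!
The Friedgut-Kalai threshold-width conjecture: for fixed `r ≥ 2` and `0 < ε < 1/2`, every nontrivial
increasing `r`-uniform hypergraph property on `n` vertices has threshold width
at most `C (log n) ^ (- r / (r - 1))`.
-/

namespace Vale.Agent.Results.P063.A_main

open Vale.Agent.Lib.P063

theorem result (r : ℕ) (hr : 2 ≤ r) (ε : ℝ) (hε : 0 < ε) (hε2 : ε < 1 / 2) :
    ∃ C : ℝ, ∀ n : ℕ, r ≤ n → ∀ P : Finset (Finset (Edge n r)), IsHyperProperty P →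
      IsIncreasingFamily P → P ≠ ∅ → P ≠ Finset.univ →
      widthP P ε ≤ C * (Real.log n) ^ (-(r : ℝ) / ((r : ℝ) - 1)) :=
  width_main r hr ε hε hε2

end Vale.Agent.Results.P063.A_main
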